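import Vale.Agent.P246.R2.H429.Defs2
import Vale.Agent.P246.T.Spec2

/-! # P246: fifth wave of rows (the homotopy classification, topological form) -/

namespace Vale.Agent.P246.H429

open Vale.Agent.P246 Vale.Agent.P246.T Topology Set

/-- ROW HOM: two presentation complexes of the same presentation are homeomorphic. -/
def SpecHom : Prop := ∀ (G X E X' E' : Type) [Group G] [TopologicalSpace X] [T2Space X]
  [TopologicalSpace E] [MulAction G E] [ContinuousConstSMul G E] (p : C(E, X))
  [TopologicalSpace X'] [T2Space X'] [TopologicalSpace E'] [MulAction G E']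
  [ContinuousConstSMul G E'] (p' : C(E', X')), IsQuotientCoveringMap p G →
  IsQuotientCoveringMap p' G → ∀ (Pr : FinPresentation G) (c : PresCx Pr p) (c' : PresCx Pr p'),
  c.Good → c'.Good → Nonempty (c.Y ≃ₜ c'.Y)

/-- ROW CLS: if all finite algebraic D(2) complexes over `ℤ[G]` of Euler characteristic `n ≥ e` are
equivalent to one Fox complex `Q n`, then finite D(2) complexes with fundamental group `G` and the
same Euler characteristic `n ≥ e` are homotopy equivalent. -/
def SpecCls : Prop := ∀ (G : Type) [Group G] (e : ℤ) (Q : ℤ → FinPresentation G),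
  (∀ C : Cx (ZG G), IsD2Complex C → ∀ n : ℤ, HasEuler C n → e ≤ n →
    C.Equiv (foxComplex (Q n))) →
  ∀ (X : Type) [TopologicalSpace X] [T2Space X] [CWComplex (Set.univ : Set X)]
    [CWComplex.Finite (Set.univ : Set X)] [ConnectedSpace X] (x : X)
    (Y : Type) [TopologicalSpace Y] [T2Space Y] [CWComplex (Set.univ : Set Y)]
    [CWComplex.Finite (Set.univ : Set Y)] [ConnectedSpace Y] (y : Y),
    Nonempty (FundamentalGroup X x ≃* G) → Nonempty (FundamentalGroup Y y ≃* G) →
    D2Condition X → D2Condition Y → cellChi X = cellChi Y → e ≤ cellChi X →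
    Nonempty (ContinuousMap.HomotopyEquiv X Y)

end Vale.Agent.P246.H429
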