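import Vale.Agent.P246.R2.H429.Defs2
import Vale.Agent.P246.T.Step
import Mathlib.Geometry.Manifold.Instances.Sphere

/-! # P246: fourth wave of rows (topological wedges with two-spheres) -/

namespace Vale.Agent.P246.H429

open Vale.Agent.P246 Vale.Agent.P246.T Topology Set

/-- The two-sphere. -/
abbrev S2 : Type := Metric.sphere (0 : EuclideanSpace ℝ (Fin 3)) 1

/-- The wedge of `X` (with the base point `x`) and of `t` copies of the two-sphere (with the base
point `s`), as a subspace of the product: at most one coordinate is not the base point. -/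
abbrev WedgeS2 (X : Type) (x : X) (s : S2) (t : ℕ) : Type :=
  {q : X × (Fin t → S2) // (∀ i, q.2 i = s) ∨ (q.1 = x ∧ ∃ i, ∀ j, j ≠ i → q.2 j = s)}

/-- ROW TW (the whole): wedges of D(2) complexes with two-spheres. -/
def SpecTopWedge : Prop := ∀ (G : Type) [Group G] (e : ℤ),
  (∀ C : Cx (ZG G), IsD2Complex C → ∀ n : ℤ, HasEuler C n → e ≤ n →
    ∃ P : FinPresentation G, C.Equiv (foxComplex P)) →
  ∀ (X : Type) [TopologicalSpace X] [T2Space X] [CWComplex (Set.univ : Set X)]
    [CWComplex.Finite (Set.univ : Set X)] [ConnectedSpace X] (x y : X) (s : S2) (t : ℕ),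
    Nonempty (FundamentalGroup X x ≃* G) → D2Condition X → e ≤ cellChi X + t →
    HasFiniteTwoModel (WedgeS2 X y s t)

/-- `B` is built from `C` by attaching `t` two-cells with constant attaching maps. -/
inductive Sph {W : Type} [TopologicalSpace W] (C : Set W) : Set W → ℕ → Prop
  | base : Sph C C 0
  | cell {A B : Set W} {t : ℕ} (Φ : C(Dk 2, W)) (a : W) : Sph C A t → a ∈ C →
      (∀ z : Dk 2, ‖(z : Fin 2 → ℝ)‖ = 1 → Φ z = a) → Attach 2 A B Φ → Sph C B (t + 1)

/-- the copy of `X` in the wedge -/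
def inX (X : Type) (x : X) (s : S2) (t : ℕ) : Set (WedgeS2 X x s t) := {q | ∀ i, q.1.2 i = s}

/-- ROW TW1: the collapse map of the square onto the sphere, and the cells of the wedge. -/
def SpecSph : Prop := ∀ (X : Type) [TopologicalSpace X] [T2Space X] (x : X) (s : S2) (t : ℕ),
  Sph (inX X x s t) univ t

/-- ROW TW2: the covering of the wedge. -/
def SpecCovW : Prop := ∀ (G X E : Type) [Group G] [TopologicalSpace X] [TopologicalSpace E]
  [MulAction G E] [ContinuousConstSMul G E] (p : C(E, X)), IsQuotientCoveringMap p G →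
  ∀ (x : X) (s : S2) (t : ℕ), ∃ (F : Type) (_ : TopologicalSpace F) (_ : MulAction G F)
    (_ : ContinuousConstSMul G F) (q : C(F, WedgeS2 X x s t)) (ι : C(E, F)),
    IsQuotientCoveringMap q G ∧ IsEmbedding ι ∧ range ι = q ⁻¹' inX X x s t ∧
    (∀ (g : G) (e : E), ι (g • e) = g • ι e) ∧ ∀ e, (q (ι e)).1.1 = p e

/-- ROW TW3: simple connectivity of the covering. -/
def SpecSCW : Prop := ∀ (G W F : Type) [Group G] [TopologicalSpace W] [T2Space W]
  [TopologicalSpace F] [MulAction G F] [ContinuousConstSMul G F] (q : C(F, W)),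
  IsQuotientCoveringMap q G → ∀ (C : Set W) (t : ℕ), IsClosed C → Sph C univ t →
  SimplyConnectedSpace (q ⁻¹' C : Set F) → SimplyConnectedSpace F

/-- ROW TW4: the finite model of the chains of the covering. -/
def SpecChW : Prop := ∀ (G W F : Type) [Group G] [TopologicalSpace W] [T2Space W]
  [TopologicalSpace F] [MulAction G F] [ContinuousConstSMul G F] (q : C(F, W))
  (hq : IsQuotientCoveringMap q G) (C : Set W) (t : ℕ), IsClosed C → Sph C univ t →
  ∀ P : ∀ n, Submodule (ZG G) (SC G n F),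
  IsFinModel (fun n => SC G n F) (fun n => SC.d G n F) (Step.SA hq C) P →
  ∃ Z : Submodule (ZG G) (SC G 2 F), Nonempty (Z ≃ₗ[ZG G] (Fin t → ZG G)) ∧
    (∀ z ∈ Z, SC.d G 1 F z = 0) ∧ Disjoint (P 2) Z ∧
    IsFinModel (fun n => SC G n F) (fun n => SC.d G n F) (fun _ => ⊤)
      (Function.update P 2 (P 2 ⊔ Z))

/-- ROW TW5: the algebraic complex of the covering of the wedge (from ROW TW4). -/
def SpecAlgW : Prop := SpecChW → ∀ (G W E F : Type) [Group G] [TopologicalSpace W] [T2Space W]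
  [TopologicalSpace E] [SimplyConnectedSpace E] [MulAction G E] [ContinuousConstSMul G E]
  [TopologicalSpace F] [SimplyConnectedSpace F] [MulAction G F] [ContinuousConstSMul G F]
  (q : C(F, W)) (_ : IsQuotientCoveringMap q G) (C : Set W) (t : ℕ) (ι : C(E, F)),
  IsClosed C → Sph C univ t → IsEmbedding ι → range ι = q ⁻¹' C →
  (∀ (g : G) (e : E), ι (g • e) = g • ι e) →
  (∀ i, 2 ≤ i → ∀ c : Ch (i + 1) E, bd i c = 0 → ∃ b : Ch (i + 2) E, bd (i + 1) b = c) →
  H3G G E → (∀ n, Module.Free (ZG G) (SC G n E)) →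
  ∀ (P : ∀ n, Submodule (ZG G) (SC G n E)) (ν : ℕ → ℕ) (N : ℕ),
  IsFinModel (fun n => SC G n E) (fun n => SC.d G n E) (fun _ => ⊤) P →
  (∀ k, Nonempty (P k ≃ₗ[ZG G] (Fin (ν k) → ZG G))) → (∀ i, N ≤ i → ν i = 0) →
  ∃ D : Cx (ZG G), IsD2Complex D ∧
    HasEuler D (∑ i ∈ Finset.range N, (-1 : ℤ) ^ i * ν i + t) ∧
    ∀ Pr : FinPresentation G, D.Equiv (foxComplex Pr) →
      ∃ (ψ0 : ZG G →ₗ[ZG G] SC G 0 F) (ψ1 : (Fin Pr.gens → ZG G) →ₗ[ZG G] SC G 1 F)
        (ψ2 : (Fin Pr.rels → ZG G) →ₗ[ZG G] SC G 2 F), FoxQI Pr univ ψ0 ψ1 ψ2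

end Vale.Agent.P246.H429
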