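import Vale.Agent.P246.R2.H429.Defs
import Vale.Agent.P246.T.Stmt

/-! # P246: second wave of rows (explicit bound, topological form) -/

namespace Vale.Agent.P246.H429

open Vale.Agent.P246 Vale.Agent.P246.T Topology

/-- `C` is a bounded complex of finitely generated free modules, of Euler characteristic `n`. -/
def HasEuler {G : Type} [Group G] (C : Cx (ZG G)) (n : ℤ) : Prop :=
  ∃ (c : ℕ → ℕ) (N : ℕ), (∀ i, Nonempty (C.X i ≃ₗ[ZG G] (Fin (c i) → ZG G))) ∧
    (∀ i, N ≤ i → c i = 0) ∧ n = ∑ i ∈ Finset.range N, (-1 : ℤ) ^ i * c i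

/-- ROW B2: Bass' stable range theorem with the right bound. -/
def SpecBass2 : Prop := ∀ (A R : Type) [CommRing A] [IsNoetherianRing A] [Ring R] [Algebra A R]
  [Module.Finite A R] (d : ℕ), (∀ p : Ideal A, p.IsPrime → p.height ≤ d) → SR R (d + 1)

/-- ROW V2: group rings of groups with a subgroup `ℤ^h` of finite index. -/
def SpecVA2 : Prop := ∀ (G : Type) [Group G] (h : ℕ),
  (∃ N : Subgroup G, N.FiniteIndex ∧ Nonempty (N ≃* Multiplicative (Fin h → ℤ))) →
  ∃ (A : Type) (_ : CommRing A) (_ : IsNoetherianRing A) (_ : Algebra A (ZG G)),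
    Module.Finite A (ZG G) ∧ ∀ p : Ideal A, p.IsPrime → p.height ≤ (h + 1 : ℕ)

/-- The Euler characteristic of a finite CW complex: the alternating number of its cells. -/
noncomputable def cellChi (X : Type) [TopologicalSpace X] [T2Space X]
    [CWComplex (Set.univ : Set X)] : ℤ :=
  ∑ᶠ n : ℕ, (-1 : ℤ) ^ n * (Nat.card (RelCWComplex.cell (Set.univ : Set X) n) : ℤ)

/-- ROW T: if all finite algebraic D(2) complexes over `ℤ[G]` of Euler characteristic at least `e`
are realised by presentations, then all finite D(2) complexes with fundamental group `G` and Euler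
characteristic at least `e` have finite two-dimensional models. -/
def SpecTopChi : Prop := ∀ (G : Type) [Group G] (e : ℤ),
  (∀ C : Cx (ZG G), IsD2Complex C → ∀ n : ℤ, HasEuler C n → e ≤ n →
    ∃ P : FinPresentation G, C.Equiv (foxComplex P)) →
  ∀ (X : Type) [TopologicalSpace X] [T2Space X] [CWComplex (Set.univ : Set X)]
    [CWComplex.Finite (Set.univ : Set X)] [ConnectedSpace X] (x : X),
    Nonempty (FundamentalGroup X x ≃* G) → D2Condition X → e ≤ cellChi X → HasFiniteTwoModel X

end Vale.Agent.P246.H429
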