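import Vale.Agent.P246.Bdl.B2

/-! # P246: definitions for the stable range theorem -/

namespace Vale.Agent.P246.H429

open Vale.Agent.P246

/-- Bass' stable range condition (for right unimodular rows). -/
def SR (R : Type) [Ring R] (n : ℕ) : Prop :=
  ∀ (y : Fin n → R) (a : R), (∃ (b : Fin n → R) (c : R), ∑ i, y i * b i + a * c = 1) →
    ∃ t v : Fin n → R, ∑ i, (y i + a * t i) * v i = 1

/-- ROW F: the Fox complex of a presentation is exact in degree one. -/
def SpecFox : Prop := ∀ (G : Type) [Group G] (P : FinPresentation G) (x : Fin P.gens → ZG G),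
  foxD1 P x = 0 → ∃ t : Fin P.rels → ZG G, foxD2 P t = x

/-- ROW B: the stable range of an algebra which is finite over a noetherian ring of finite
dimension in its centre. -/
def SpecBass : Prop := ∀ (A R : Type) [CommRing A] [IsNoetherianRing A] [Ring R] [Algebra A R]
  [Module.Finite A R] (d : ℕ), (∀ p : Ideal A, p.IsPrime → p.height ≤ d) → ∃ n : ℕ, 1 ≤ n ∧ SR R n

/-- ROW V: the group ring of a finitely generated virtually abelian group. -/
def SpecVA : Prop := ∀ (G : Type) [Group G], Group.FG G →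
  (∃ N : Subgroup G, N.FiniteIndex ∧ ∀ a ∈ N, ∀ b ∈ N, a * b = b * a) →
  ∃ (A : Type) (_ : CommRing A) (_ : IsNoetherianRing A) (_ : Algebra A (ZG G)),
    Module.Finite A (ZG G) ∧ ∃ d : ℕ, ∀ p : Ideal A, p.IsPrime → p.height ≤ d

/-- ROW C: cancellation over `Z`. -/
def SpecCan : Prop := ∀ (R : Type) [Ring R] (k : ℕ), SR R k → ∀ (l : ℕ), k ≤ l → 1 ≤ k →
  ∀ (M N Z : Type) [AddCommGroup M] [Module R M] [AddCommGroup N] [Module R N]
    [AddCommGroup Z] [Module R Z] (μ : M →ₗ[R] Z) (ν : N →ₗ[R] Z) (n : ℕ)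
    (φ : (M × (Fin n → R)) ≃ₗ[R] (N × (Fin l → R)) × (Fin n → R)),
    (∀ x, ν (φ x).1.1 = μ x.1) → ∃ ψ : M ≃ₗ[R] N × (Fin l → R), ∀ x, ν (ψ x).1 = μ x

end Vale.Agent.P246.H429
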