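import Vale.Agent.P246.R2.H429.SF

/-! # P246: the linear algebra of the stable range theorem -/

namespace Vale.Agent.P246.H429

open Function

variable {R : Type} [Ring R]

/-- stable comparison of two surjections onto the same module -/
theorem over_iso (hCan : SpecCan) {k : ℕ} (hk : 1 ≤ k) (hSR : SR R k) (L Z : Type) [AddCommGroup L]
    [Module R L] [AddCommGroup Z] [Module R Z] (r m : ℕ) (hkm : k ≤ m) (hL : SFr R L (m + r))
    (pr : L →ₗ[R] Z) (κ : (Fin r → R) →ₗ[R] Z) (h : LinearMap.range pr = LinearMap.range κ) :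
    ∃ Ψ : L ≃ₗ[R] (Fin r → R) × (Fin m → R), ∀ x, κ (Ψ x).1 = pr x := by
  have hLp : Module.Projective R L := hL.projective
  obtain ⟨φ, hφ⟩ := schanuel pr κ h
  obtain ⟨a, b, ⟨f⟩, hab⟩ := hL
  have hb : b = m + (r + a) := by omega
  subst hb
  let Φ1 : (L × (Fin (r + a) → R)) ≃ₗ[R] (L × ((Fin r → R) × (Fin a → R))) :=
    LinearEquiv.prodCongr (LinearEquiv.refl _ _) (addEquiv R r a)
  let Φ2 : (L × ((Fin r → R) × (Fin a → R))) ≃ₗ[R] ((L × (Fin r → R)) × (Fin a → R)) :=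
    (LinearEquiv.prodAssoc R _ _ _).symm
  let Φ3 : ((L × (Fin r → R)) × (Fin a → R)) ≃ₗ[R] ((L × (Fin r → R)) × (Fin a → R)) :=
    LinearEquiv.prodCongr φ (LinearEquiv.refl _ _)
  let Φ4 : ((L × (Fin r → R)) × (Fin a → R)) ≃ₗ[R] ((Fin r → R) × (L × (Fin a → R))) :=
    { toFun := fun x => (x.1.2, (x.1.1, x.2))
      invFun := fun y => ((y.2.1, y.1), y.2.2)
      left_inv := fun _ => rfl
      right_inv := fun _ => rfl
      map_add' := fun _ _ => rfl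
      map_smul' := fun _ _ => rfl }
  let Φ5 : ((Fin r → R) × (L × (Fin a → R))) ≃ₗ[R]
      ((Fin r → R) × ((Fin m → R) × (Fin (r + a) → R))) :=
    LinearEquiv.prodCongr (LinearEquiv.refl _ _) (f.trans (addEquiv R m (r + a)))
  let Φ6 : ((Fin r → R) × ((Fin m → R) × (Fin (r + a) → R))) ≃ₗ[R]
      (((Fin r → R) × (Fin m → R)) × (Fin (r + a) → R)) :=
    (LinearEquiv.prodAssoc R _ _ _).symm
  exact hCan R k hSR m hkm hk L (Fin r → R) Z pr κ (r + a)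
    (Φ1.trans (Φ2.trans (Φ3.trans (Φ4.trans (Φ5.trans Φ6))))) (by
      intro x
      exact hφ (x.1, (addEquiv R r a x.2).1))

/-- the linear algebra of the theorem -/
theorem core (hCan : SpecCan) {k : ℕ} (hk : 1 ≤ k) (hSR : SR R k) {g r : ℕ}
    (κ1 : (Fin g → R) →ₗ[R] R) (κ2 : (Fin r → R) →ₗ[R] (Fin g → R))
    (hκ : ∀ x, κ1 x = 0 ↔ ∃ t, κ2 t = x) (C0 C1 E : Type) [AddCommGroup C0] [Module R C0]
    [AddCommGroup C1] [Module R C1] [AddCommGroup E] [Module R E] (D1 : C1 →ₗ[R] C0)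
    (D2 : E →ₗ[R] C1) (F0 : R →ₗ[R] C0) (F1 : (Fin g → R) →ₗ[R] C1)
    (hc1 : ∀ u, D1 (F1 u) = F0 (κ1 u)) (hDD : ∀ x, D1 (D2 x) = 0)
    (hex : ∀ v, D1 v = 0 → ∃ x, D2 x = v) (hi0 : ∀ u v, F0 u = D1 v → ∃ z, κ1 z = u)
    (hs0 : ∀ x, ∃ u v, F0 u - D1 v = x) (c0 c1 e : ℤ) (h0 : SFr R C0 c0) (h1 : SFr R C1 c1)
    (h2 : SFr R E e) (m : ℕ) (hm : (m : ℤ) + r = g + e - (1 + c1 - c0)) (hkm : k ≤ m) :
    ∃ F2 : (Fin (r + m) → R) →ₗ[R] E,
      (∀ t, D2 (F2 t) = F1 (κ2 (addEquiv R r m t).1)) ∧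
      (∀ t, κ2 (addEquiv R r m t).1 = 0 → F2 t = 0 → t = 0) ∧
      ∀ w, D2 w = 0 → ∃ t, κ2 (addEquiv R r m t).1 = 0 ∧ F2 t = w := by
  let Ξ : (R × C1) →ₗ[R] C0 := F0 ∘ₗ LinearMap.fst _ _ _ - D1 ∘ₗ LinearMap.snd _ _ _
  have hΞ : Surjective Ξ := by
    intro x
    obtain ⟨u, v, h⟩ := hs0 x
    exact ⟨(u, v), h⟩
  let Θ : ((Fin g → R) × E) →ₗ[R] LinearMap.ker Ξ :=
    LinearMap.codRestrict _ (LinearMap.prod (κ1 ∘ₗ LinearMap.fst _ _ _)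
      (F1 ∘ₗ LinearMap.fst _ _ _ + D2 ∘ₗ LinearMap.snd _ _ _)) (by
        intro v
        rw [LinearMap.mem_ker]
        change F0 (κ1 v.1) - D1 (F1 v.1 + D2 v.2) = 0
        rw [map_add, hDD, add_zero, hc1, sub_self])
  have hΘ1 : ∀ v, (Θ v).1 = (κ1 v.1, F1 v.1 + D2 v.2) := fun v => rfl
  have hΘ : Surjective Θ := by
    rintro ⟨⟨u, v⟩, huv⟩
    have h3 : F0 u - D1 v = 0 := huv
    obtain ⟨z, hz⟩ := hi0 u v (sub_eq_zero.1 h3)
    have h4 : D1 (v - F1 z) = 0 := by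
      rw [map_sub, hc1, hz, sub_eq_zero.1 h3, sub_self]
    obtain ⟨w, hw⟩ := hex _ h4
    refine ⟨(z, w), Subtype.ext ?_⟩
    rw [hΘ1]
    change (κ1 z, F1 z + D2 w) = (u, v)
    rw [hw, hz, add_sub_cancel]
  have hR1 : SFr R R 1 := (SFr.free (R := R) 1).of_equiv (LinearEquiv.funUnique (Fin 1) R R)
  have hQ : SFr R (LinearMap.ker Ξ) (1 + c1 - c0) := SFr.ker (hR1.prod h1) h0 Ξ hΞ
  have hL : SFr R (LinearMap.ker Θ) (m + r) := by
    rw [hm]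
    exact SFr.ker ((SFr.free (R := R) g).prod h2) hQ Θ hΘ
  let pr : LinearMap.ker Θ →ₗ[R] (Fin g → R) := LinearMap.fst _ _ _ ∘ₗ (LinearMap.ker Θ).subtype
  have hkΘ : ∀ v, Θ v = 0 ↔ κ1 v.1 = 0 ∧ F1 v.1 + D2 v.2 = 0 := by
    intro v
    rw [Subtype.ext_iff, hΘ1]
    exact Prod.ext_iff
  have hrange : LinearMap.range pr = LinearMap.range κ2 := by
    ext z
    constructor
    · rintro ⟨v, rfl⟩
      obtain ⟨t, ht⟩ := (hκ (pr v)).1 ((hkΘ v.1).1 v.2).1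
      exact ⟨t, ht⟩
    · rintro ⟨t, rfl⟩
      have h3 : κ1 (κ2 t) = 0 := (hκ _).2 ⟨t, rfl⟩
      have h4 : D1 (-F1 (κ2 t)) = 0 := by
        rw [map_neg, hc1, h3, map_zero, neg_zero]
      obtain ⟨w, hw⟩ := hex _ h4
      refine ⟨⟨(κ2 t, w), ?_⟩, rfl⟩
      rw [LinearMap.mem_ker, hkΘ]
      refine ⟨h3, ?_⟩
      change F1 (κ2 t) + D2 w = 0
      rw [hw, add_neg_cancel]
  obtain ⟨Ψ, hΨ⟩ := over_iso hCan hk hSR (LinearMap.ker Θ) (Fin g → R) r m hkm hL pr κ2 hrange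
  have hΨ' : ∀ z, (Ψ.symm z).1.1 = κ2 z.1 := by
    intro z
    have h3 := hΨ (Ψ.symm z)
    rw [LinearEquiv.apply_symm_apply] at h3
    exact h3.symm
  let A := addEquiv R r m
  let F2 : (Fin (r + m) → R) →ₗ[R] E :=
    -(LinearMap.snd _ _ _ ∘ₗ (LinearMap.ker Θ).subtype ∘ₗ Ψ.symm.toLinearMap ∘ₗ A.toLinearMap)
  have hF2 : ∀ t, F2 t = -(Ψ.symm (A t)).1.2 := fun t => rfl
  refine ⟨F2, ?_, ?_, ?_⟩
  · intro t
    have h3 := ((hkΘ (Ψ.symm (A t)).1).1 (Ψ.symm (A t)).2).2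
    rw [hΨ' (A t)] at h3
    rw [hF2, map_neg]
    exact (eq_neg_of_add_eq_zero_left h3).symm
  · intro t ht ht2
    have h4 : (Ψ.symm (A t)).1.2 = 0 := by
      have h5 := hF2 t
      rw [ht2] at h5
      exact (neg_eq_zero.1 h5.symm)
    have h5 : (Ψ.symm (A t)).1.1 = 0 := by
      rw [hΨ' (A t)]
      exact ht
    have h6 : Ψ.symm (A t) = 0 := Subtype.ext (Prod.ext h5 h4)
    have h7 : A t = 0 := by
      rw [← Ψ.apply_symm_apply (A t), h6, map_zero]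
    rw [← A.symm_apply_apply t, h7, map_zero]
  · intro w hw
    have h4 : Θ ((0 : Fin g → R), -w) = 0 := by
      rw [hkΘ]
      refine ⟨map_zero _, ?_⟩
      rw [map_zero, map_neg, hw, neg_zero, add_zero]
    let l : LinearMap.ker Θ := ⟨_, h4⟩
    have h5 : Ψ.symm (A (A.symm (Ψ l))) = l := by
      rw [LinearEquiv.apply_symm_apply, LinearEquiv.symm_apply_apply]
    refine ⟨A.symm (Ψ l), ?_, ?_⟩
    · have h6 : addEquiv R r m (A.symm (Ψ l)) = Ψ l := A.apply_symm_apply _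
      rw [h6, hΨ]
      rfl
    · rw [hF2, h5]
      exact neg_neg w

end Vale.Agent.P246.H429
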