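import Vale.Agent.P246.R2.H429.Defs2

/-! # P246: third wave of rows (wedges with spheres, uniqueness of the Euler characteristic) -/

namespace Vale.Agent.P246.H429

open Vale.Agent.P246 CategoryTheory

variable {G : Type} [Group G]

/-- The modules of the wedge with `t` spheres of dimension two. -/
noncomputable abbrev wedgeX (C : Cx (ZG G)) (t i : ℕ) : ModuleCat.{0} (ZG G) :=
  ModuleCat.of (ZG G) (C.X i × (Fin (if i = 2 then t else 0) → ZG G))

/-- The boundary maps of the wedge with `t` spheres of dimension two. -/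
noncomputable abbrev wedgeD (C : Cx (ZG G)) (t i : ℕ) : wedgeX C t (i + 1) ⟶ wedgeX C t i :=
  ModuleCat.ofHom ((C.d i).hom.prodMap 0)

theorem wedge_dd (C : Cx (ZG G)) (t i : ℕ) : wedgeD C t (i + 1) ≫ wedgeD C t i = 0 := by
  rw [← ModuleCat.ofHom_comp]
  have h : (C.d i).hom ∘ₗ (C.d (i + 1)).hom = 0 := by
    rw [← ModuleCat.hom_comp]
    exact congrArg ModuleCat.Hom.hom (HomologicalComplex.d_comp_d C (i + 2) (i + 1) i)
  rw [LinearMap.prodMap_comp, h, LinearMap.zero_comp, LinearMap.prodMap_zero]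
  rfl

/-- The wedge with `t` spheres of dimension two: `ℤ[G]^t` with zero boundary is added in degree
two. -/
noncomputable def wedge (C : Cx (ZG G)) (t : ℕ) : Cx (ZG G) :=
  ChainComplex.of (wedgeX C t) (wedgeD C t) (wedge_dd C t)

/-- ROW W: wedges with spheres. -/
def SpecW : Prop := ∀ (G : Type) [Group G] (C : Cx (ZG G)) (t : ℕ) (n : ℤ), IsD2Complex C →
  HasEuler C n → IsD2Complex (wedge C t) ∧ HasEuler (wedge C t) (n + t)

/-- ROW E: the Euler characteristic exists and is unique, for every group. -/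
def SpecE : Prop := ∀ (G : Type) [Group G] (C : Cx (ZG G)), IsD2Complex C → ∃! n : ℤ, HasEuler C n

/-- ROW X: uniqueness of ranks, and positivity. -/
def SpecX : Prop := ∀ (G : Type) [Group G] (M : Type) [AddCommGroup M] [Module (ZG G) M] (a b : ℕ),
  Nonempty ((M × (Fin a → ZG G)) ≃ₗ[ZG G] (Fin b → ZG G)) → a ≤ b

end Vale.Agent.P246.H429
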