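import Vale.Agent.P246.R2.H429.Main
import Vale.Agent.P246.R2.H429.Defs3
import Vale.Agent.P246.R2.H429.Defs4

/-! # P246: the definitions of the statement of the stable range theorem -/

namespace Vale.Agent.P246.H429

open Vale.Agent.P246 Vale.Agent.P246.T Topology

/-- `G` has a subgroup of finite index which is isomorphic to `ℤ^h`. -/
def VirtZ (G : Type) [Group G] (h : ℕ) : Prop :=
  ∃ N : Subgroup G, N.FiniteIndex ∧ Nonempty (N ≃* Multiplicative (Fin h → ℤ))

/-- The Euler characteristic of (the complex of) the presentation. -/
def chiP {G : Type} [Group G] (P : FinPresentation G) : ℤ := 1 - (P.gens : ℤ) + P.rels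

/-- Algebraic form: every finite algebraic D(2) complex `C` over `ℤ[G]` has exactly one Euler
characteristic `n`, and `b ≤ n`; if `χ(P) + k ≤ n`, then `C` is chain homotopy equivalent to the
complex of the presentation `P` with `n - χ(P)` trivial relators added; the same holds for the
wedge of `C` with `t` two-spheres as soon as `χ(P) + k ≤ n + t`. -/
def AlgRange {G : Type} [Group G] (P : FinPresentation G) (k : ℕ) (b : ℤ) : Prop :=
  ∀ C : Cx (ZG G), IsD2Complex C → ∃ n : ℤ, HasEuler C n ∧ (∀ n', HasEuler C n' → n' = n) ∧
    b ≤ n ∧ (∀ m : ℕ, n = chiP P + m → k ≤ m → C.Equiv (foxComplex (P.addTrivial m))) ∧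
    ∀ t m : ℕ, n + t = chiP P + m → k ≤ m → (wedge C t).Equiv (foxComplex (P.addTrivial m))

/-- Topological form: every finite connected D(2) complex `X` with fundamental group `G` has
Euler characteristic at least `b`; it has a finite two-dimensional model if its Euler
characteristic is at least `χ(P) + k`; and its wedge with `t` two-spheres has one as soon as
`χ(P) + k ≤ χ(X) + t`. -/
def TopRange {G : Type} [Group G] (P : FinPresentation G) (k : ℕ) (b : ℤ) : Prop :=
  ∀ (X : Type) [TopologicalSpace X] [T2Space X] [CWComplex (Set.univ : Set X)]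
    [CWComplex.Finite (Set.univ : Set X)] [ConnectedSpace X] (x : X),
    Nonempty (FundamentalGroup X x ≃* G) → D2Condition X →
    b ≤ cellChi X ∧ (chiP P + k ≤ cellChi X → HasFiniteTwoModel X) ∧
    ∀ (y : X) (s : S2) (t : ℕ), chiP P + k ≤ cellChi X + t → HasFiniteTwoModel (WedgeS2 X y s t)

/-- Homotopy classification in the stable range: finite connected D(2) complexes with fundamental
group `G` and the same Euler characteristic, at least `χ(P) + k`, are homotopy equivalent. -/
def TopClass {G : Type} [Group G] (P : FinPresentation G) (k : ℕ) : Prop :=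
  ∀ (X : Type) [TopologicalSpace X] [T2Space X] [CWComplex (Set.univ : Set X)]
    [CWComplex.Finite (Set.univ : Set X)] [ConnectedSpace X] (x : X)
    (Y : Type) [TopologicalSpace Y] [T2Space Y] [CWComplex (Set.univ : Set Y)]
    [CWComplex.Finite (Set.univ : Set Y)] [ConnectedSpace Y] (y : Y),
    Nonempty (FundamentalGroup X x ≃* G) → Nonempty (FundamentalGroup Y y ≃* G) →
    D2Condition X → D2Condition Y → cellChi X = cellChi Y → chiP P + k ≤ cellChi X →
    Nonempty (ContinuousMap.HomotopyEquiv X Y)

end Vale.Agent.P246.H429
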