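import Vale.Agent.P246.R2.H31.TopChi

/-! # P246: the algebraic complex of a finite D(2) complex, with its Euler characteristic -/

namespace Vale.Agent.P246.H429

open Topology Metric Set Vale.Agent.P246 Vale.Agent.P246.T Vale.Agent.P246.R2.H31T

theorem top_alg (G : Type) [Group G] (X : Type) [TopologicalSpace X] [T2Space X]
    [CWComplex (Set.univ : Set X)] [CWComplex.Finite (Set.univ : Set X)] [ConnectedSpace X] (x : X)
    (he : Nonempty (FundamentalGroup X x ≃* G)) (hD : D2Condition X) :
    ∃ C : Cx (ZG G), IsD2Complex C ∧ HasEuler C (cellChi X) := by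
  obtain ⟨hB, hcpt, hlpc⟩ := CWB.main X
  have hpc : PathConnectedSpace X := PathConnectedSpace.of_locallyPathConnectedSpace
  obtain ⟨E, _, _, _, p, hsc, hp, hH, hH3⟩ := AC.main G X x he hD
  obtain ⟨P, hP, hν⟩ := modelN (p := p) MS.main CL.main fund hp (builtN_univ (X := X))
  obtain ⟨N, hN⟩ := exists_bound (X := X)
  obtain ⟨C, hC, hE, hreal⟩ := algData p hp hH hH3 hP hν N hN
  exact ⟨C, hC, by rw [cellChi_eq X N hN]; exact hE⟩

end Vale.Agent.P246.H429
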