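import Vale.Agent.P246.R2.H429.V2
import Vale.Agent.P246.R2.H429.FinDefs
import Vale.Agent.P246.R2.H429.TopLow

/-! # P246: assembly of the stable range theorem -/

namespace Vale.Agent.P246.H429

open Vale.Agent.P246 Vale.Agent.P246.T Topology

theorem algRange {G : Type} [Group G] {k : ℕ} (hk : 1 ≤ k) (hSR : SR (ZG G) k)
    (P : FinPresentation G) (b : ℤ)
    (hb : ∀ C : Cx (ZG G), IsD2Complex C → ∀ n : ℤ, HasEuler C n → b ≤ n) : AlgRange P k b := by
  intro C hC
  obtain ⟨n, hn, hu⟩ := Vale.Agent.P246.H665.rowE G C hC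
  have key : ∀ (D : Cx (ZG G)) (_ : IsD2Complex D) (l : ℤ) (_ : HasEuler D l) (m : ℕ),
      l = chiP P + m → k ≤ m → D.Equiv (foxComplex (P.addTrivial m)) := by
    intro D hD l hl m hm hkm
    have hkm' : (k : ℤ) ≤ m := by exact_mod_cast hkm
    rw [chiP] at hm
    obtain ⟨m', hm', h⟩ := stable hk hSR P D hD l hl (by rw [hm]; linarith)
    have h2 : m' = m := by
      have : (m' : ℤ) = m := by rw [hm', hm]; ring
      exact_mod_cast this
    rw [h2] at h
    exact h
  refine ⟨n, hn, fun n' hn' => hu n' hn', hb C hC n hn, key C hC n hn, ?_⟩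
  intro t m hm hkm
  obtain ⟨h1, h2⟩ := Vale.Agent.P246.R2.H555.specW G C t n hC hn
  exact key _ h1 _ h2 m hm hkm

theorem topRange (hTW : SpecTopWedge) {G : Type} [Group G] {k : ℕ} (hk : 1 ≤ k)
    (hSR : SR (ZG G) k) (P : FinPresentation G) (b : ℤ)
    (hb : ∀ C : Cx (ZG G), IsD2Complex C → ∀ n : ℤ, HasEuler C n → b ≤ n) : TopRange P k b := by
  intro X _ _ _ _ _ x hG hX
  obtain ⟨C, hC, hn⟩ := top_alg G X x hG hX
  refine ⟨hb C hC _ hn, fun h => top_stable hk hSR P X x hG hX h, fun y s t ht => ?_⟩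
  exact hTW G (chiP P + k) (fun D hD n hn hle =>
    (stable hk hSR P D hD n hn hle).imp' _ fun _ h => h.2) X x y s t hG hX ht

end Vale.Agent.P246.H429
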