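import Vale.Agent.P246.R2.H429.Fin1
import Vale.Agent.P246.R2.H110.TW1
import Vale.Agent.P246.R2.H946.TW2
import Vale.Agent.P246.R2.H712.TW3
import Vale.Agent.P246.R2.H888.TW4
import Vale.Agent.P246.R2.H456.TW5
import Vale.Agent.P246.R2.H855.TW6
import Vale.Agent.P246.R2.H301.LB

/-! # P246: assembly of the stable range theorem, with wedges -/

namespace Vale.Agent.P246.H429

open Vale.Agent.P246 Vale.Agent.P246.T Topology

theorem topWedge : SpecTopWedge :=
  Vale.Agent.P246.R2.H855.topWedge Vale.Agent.P246.H110.sph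
    Vale.Agent.P246.R2.H946.specCovW Vale.Agent.P246.H712.specSCW
    Vale.Agent.P246.R2.H888W.main Vale.Agent.P246.R2.H456.tw5

theorem nonneg {G : Type} [Group G] {h : ℕ} (hN : VirtZ G h) (C : Cx (ZG G))
    (hC : IsD2Complex C) (n : ℤ) (hn : HasEuler C n) : 0 ≤ n :=
  Vale.Agent.P246.H301.rowLB G h hN C hC n hn

end Vale.Agent.P246.H429
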