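import Vale.Agent.P246.R2.H429.Fin2
import Vale.Agent.P246.R2.H109.CLS
import Vale.Agent.P246.R2.H111.HOM

/-! # P246: the homotopy classification in the stable range -/

namespace Vale.Agent.P246.H429

open Vale.Agent.P246 Vale.Agent.P246.T Topology

theorem topClass {G : Type} [Group G] {k : ℕ} (hk : 1 ≤ k) (hSR : SR (ZG G) k)
    (P : FinPresentation G) : TopClass P k := by
  refine Vale.Agent.P246.R2.H109.CLS.cls Vale.Agent.P246.H111.HOM.hom G (chiP P + k)
    (fun n => P.addTrivial (n - chiP P).toNat) (fun C hC n hn hle => ?_)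
  obtain ⟨m, hm, h⟩ := stable hk hSR P C hC n hn hle
  have h2 : (n - chiP P).toNat = m := by
    rw [chiP, ← hm]
    exact Int.toNat_natCast m
  rw [h2]
  exact h

end Vale.Agent.P246.H429
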