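import Vale.Agent.P246.R2.H429.Red
import Vale.Agent.P246.R2.H429.Defs3

/-! # P246: the lower bound for the Euler characteristic -/

namespace Vale.Agent.P246.H429

open CategoryTheory Function

variable {G : Type} [Group G]

theorem SFr.nonneg (hX : SpecX) {M : Type} [AddCommGroup M] [Module (ZG G) M] {n : ℤ}
    (h : SFr (ZG G) M n) : 0 ≤ n := by
  obtain ⟨a, b, h, rfl⟩ := h
  have := hX G M a b h
  omega

theorem core_low {R : Type} [Ring R] {g : ℕ} (κ1 : (Fin g → R) →ₗ[R] R) (C0 C1 E : Type)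
    [AddCommGroup C0] [Module R C0] [AddCommGroup C1] [Module R C1] [AddCommGroup E] [Module R E]
    (D1 : C1 →ₗ[R] C0) (D2 : E →ₗ[R] C1) (F0 : R →ₗ[R] C0) (F1 : (Fin g → R) →ₗ[R] C1)
    (hc1 : ∀ u, D1 (F1 u) = F0 (κ1 u)) (hDD : ∀ x, D1 (D2 x) = 0)
    (hex : ∀ v, D1 v = 0 → ∃ x, D2 x = v) (hi0 : ∀ u v, F0 u = D1 v → ∃ z, κ1 z = u)
    (hs0 : ∀ x, ∃ u v, F0 u - D1 v = x) (c0 c1 e : ℤ) (h0 : SFr R C0 c0) (h1 : SFr R C1 c1)
    (h2 : SFr R E e) :
    ∃ (M : Type) (_ : AddCommGroup M) (_ : Module R M), SFr R M (g + e - (1 + c1 - c0)) := by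
  let Ξ : (R × C1) →ₗ[R] C0 := F0 ∘ₗ LinearMap.fst _ _ _ - D1 ∘ₗ LinearMap.snd _ _ _
  have hΞ : Surjective Ξ := by
    intro x
    obtain ⟨u, v, h⟩ := hs0 x
    exact ⟨(u, v), h⟩
  let Θ : ((Fin g → R) × E) →ₗ[R] LinearMap.ker Ξ :=
    LinearMap.codRestrict _ (LinearMap.prod (κ1 ∘ₗ LinearMap.fst _ _ _)
      (F1 ∘ₗ LinearMap.fst _ _ _ + D2 ∘ₗ LinearMap.snd _ _ _)) (by
        intro v
        rw [LinearMap.mem_ker]
        change F0 (κ1 v.1) - D1 (F1 v.1 + D2 v.2) = 0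
        rw [map_add, hDD, add_zero, hc1, sub_self])
  have hΘ1 : ∀ v, (Θ v).1 = (κ1 v.1, F1 v.1 + D2 v.2) := fun v => rfl
  have hΘ : Surjective Θ := by
    rintro ⟨⟨u, v⟩, huv⟩
    have h3 : F0 u - D1 v = 0 := huv
    obtain ⟨z, hz⟩ := hi0 u v (sub_eq_zero.1 h3)
    have h4 : D1 (v - F1 z) = 0 := by
      rw [map_sub, hc1, hz, sub_eq_zero.1 h3, sub_self]
    obtain ⟨w, hw⟩ := hex _ h4
    refine ⟨(z, w), Subtype.ext ?_⟩
    rw [hΘ1]
    change (κ1 z, F1 z + D2 w) = (u, v)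
    rw [hw, hz, add_sub_cancel]
  have hR1 : SFr R R 1 := (SFr.free (R := R) 1).of_equiv (LinearEquiv.funUnique (Fin 1) R R)
  have hQ : SFr R (LinearMap.ker Ξ) (1 + c1 - c0) := SFr.ker (hR1.prod h1) h0 Ξ hΞ
  exact ⟨LinearMap.ker Θ, inferInstance, inferInstance,
    SFr.ker ((SFr.free (R := R) g).prod h2) hQ Θ hΘ⟩

theorem low (hX : SpecX) (P : FinPresentation G) (C : ChainComplex (ModuleCat.{0} (ZG G)) ℕ)
    (hC : D2Data G C) (n : ℤ) (hn : HasEuler (G := G) C n) : 1 - (P.gens : ℤ) ≤ n := by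
  obtain ⟨c, N, hc, hcN, rfl⟩ := hn
  have hc' : ∀ i, Nonempty (C.X i ≃ₗ[ZG G] (Fin (c i) → ZG G)) := hc
  have hfree := hC.free
  have hfin := hC.finite
  have hsub : ∀ i, N ≤ i → Subsingleton (C.X i) := by
    intro i hi
    obtain ⟨e⟩ := hc' i
    have h0 := hcN i hi
    rw [h0] at e
    exact e.toEquiv.subsingleton
  -- the retraction
  obtain ⟨ψ, hψ⟩ := hC.cohomology_three (LinearMap.range (C.d 3 2).hom)
    (C.d 3 2).hom.rangeRestrict (by
      intro x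
      apply Subtype.ext
      exact dd_zero C 4 3 2 x)
  have hψ' : ∀ x : LinearMap.range (C.d 3 2).hom, ψ x.1 = x := by
    rintro ⟨_, ⟨x, rfl⟩⟩
    exact (hψ x).symm
  have hprojX2 : Module.Projective (ZG G) (C.X 2) := inferInstance
  have hproj : Module.Projective (ZG G) (LinearMap.range (C.d 3 2).hom) := by
    refine Module.Projective.of_split (LinearMap.range (C.d 3 2).hom).subtype ψ ?_
    ext x
    exact congrArg Subtype.val (hψ' x)
  have hB : SFr (ZG G) (LinearMap.range (C.d 3 2).hom)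
      (∑ i ∈ Finset.range N, (-1 : ℤ) ^ i * c (i + 1 + 2)) := by
    refine SFr.range N (fun i => C.X (i + 2)) (fun i => c (i + 2)) (fun i => hc' (i + 2))
      (fun i => (C.d (i + 3) (i + 2)).hom) (fun i hi => hsub (i + 2) (by omega)) ?_ hproj
    intro i
    ext x
    rw [LinearMap.mem_ker, LinearMap.mem_range]
    constructor
    · intro hx
      exact (exactAt_succ_iff C (i + 2)).1 (hC.homology_high (i + 3) (by omega)) x hx
    · rintro ⟨y, rfl⟩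
      exact dd_zero C _ _ _ y
  set β : ℤ := ∑ i ∈ Finset.range N, (-1 : ℤ) ^ i * c (i + 1 + 2) with hβ
  have hXi : ∀ i, SFr (ZG G) (C.X i) (c i) := by
    intro i
    obtain ⟨e⟩ := hc' i
    exact (SFr.free (R := ZG G) (c i)).of_equiv e.symm
  have hC2 : SFr (ZG G) (LinearMap.ker ψ) (c 2 - β) :=
    SFr.ker (hXi 2) hB ψ (fun y => ⟨y.1, hψ' y⟩)
  have hchi : ∑ i ∈ Finset.range N, (-1 : ℤ) ^ i * c i = c 0 - c 1 + c 2 - β := by
    have h1 : ∑ i ∈ Finset.range N, (-1 : ℤ) ^ i * c i =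
        ∑ i ∈ Finset.range (N + 3), (-1 : ℤ) ^ i * (c i : ℤ) := by
      rw [Finset.sum_range_add]
      have h2 : ∑ x ∈ Finset.range 3, (-1 : ℤ) ^ (N + x) * (c (N + x) : ℤ) = 0 := by
        refine Finset.sum_eq_zero fun i _ => ?_
        rw [hcN (N + i) (by omega)]
        simp
      rw [h2, add_zero]
    rw [h1, Finset.sum_range_succ', Finset.sum_range_succ', Finset.sum_range_succ', hβ]
    have h3 : ∑ i ∈ Finset.range N, (-1 : ℤ) ^ (i + 1 + 1 + 1) * (c (i + 1 + 1 + 1) : ℤ) =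
        - ∑ i ∈ Finset.range N, (-1 : ℤ) ^ i * (c (i + 1 + 2) : ℤ) := by
      rw [← Finset.sum_neg_distrib]
      refine Finset.sum_congr rfl fun i _ => ?_
      rw [show i + 1 + 1 + 1 = i + 1 + 2 by omega]
      rw [show i + 1 + 2 = i + 3 by omega, pow_add]
      ring
    rw [h3]
    simp
    ring
  -- the augmentation and the chain map
  obtain ⟨ε, hεs, hεg, hεk⟩ := hC.homology_zero
  obtain ⟨x0, hx0⟩ := hεs 1
  let F0 : ZG G →ₗ[ZG G] C.X 0 := LinearMap.toSpanSingleton (ZG G) (C.X 0) x0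
  have hF0 : ∀ u, ε (F0 u) = aug G u := by
    intro u
    have h : F0 u = u • x0 := rfl
    rw [h, eps_smul ε hεg, hx0, mul_one]
  let D1 : C.X 1 →ₗ[ZG G] C.X 0 := (C.d 1 0).hom
  have hε1 : ∀ x, ε x = 0 ↔ ∃ y, D1 y = x := hεk
  have hy : ∀ i, ∃ y : C.X 1, D1 y = F0 (elt (P.x i) - 1) := by
    intro i
    rw [← hε1, hF0, map_sub, aug_elt, map_one, sub_self]
  choose y hy using hy
  let F1 : (Fin P.gens → ZG G) →ₗ[ZG G] C.X 1 := Fintype.linearCombination (ZG G) y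
  have hc1 : ∀ u, D1 (F1 u) = F0 (foxD1 P u) := by
    intro u
    have h1 : F1 u = ∑ i, u i • y i := Fintype.linearCombination_apply _ _ _
    have h2 : foxD1 P u = ∑ i, u i • (elt (P.x i) - 1) := Fintype.linearCombination_apply _ _ _
    rw [h1, h2, map_sum, map_sum]
    refine Finset.sum_congr rfl fun i _ => ?_
    rw [map_smul, map_smul, hy]
  let D2 : LinearMap.ker ψ →ₗ[ZG G] C.X 1 := (C.d 2 1).hom ∘ₗ (LinearMap.ker ψ).subtype
  have hDD : ∀ x, D1 (D2 x) = 0 := fun x => dd_zero C 2 1 0 _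
  have hex : ∀ v, D1 v = 0 → ∃ x, D2 x = v := by
    intro v hv
    obtain ⟨x, hx⟩ := (exactAt_succ_iff C 0).1 hC.homology_one v hv
    refine ⟨⟨x - ψ x, ?_⟩, ?_⟩
    · rw [LinearMap.mem_ker, map_sub, hψ', sub_self]
    · change (C.d 2 1).hom (x - ψ x) = v
      rw [map_sub]
      obtain ⟨w, hw⟩ := (ψ x).2
      rw [← hw]
      have h0 : (C.d 2 1).hom ((C.d 3 2).hom w) = 0 := dd_zero C 3 2 1 w
      rw [h0, sub_zero]
      exact hx
  have hi0 : ∀ u v, F0 u = D1 v → ∃ z, foxD1 P z = u := by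
    intro u v huv
    have h2 : aug G u = 0 := by
      rw [← hF0, hε1]
      exact ⟨v, huv.symm⟩
    exact (aug_gen P u).1 h2
  have hs0 : ∀ x, ∃ u v, F0 u - D1 v = x := by
    intro x
    have h1 : ε (F0 ((ε x : ℤ) : ZG G) - x) = 0 := by
      rw [map_sub, hF0, map_intCast, Int.cast_id, sub_self]
    obtain ⟨v, hv⟩ := (hε1 _).1 h1
    refine ⟨((ε x : ℤ) : ZG G), v, ?_⟩
    rw [hv, sub_sub_cancel]
  obtain ⟨M, _, _, hM⟩ := core_low (foxD1 P) (C.X 0) (C.X 1) (LinearMap.ker ψ) D1 D2 F0 F1 hc1 hDD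
    hex hi0 hs0 (c 0) (c 1) (c 2 - β) (hXi 0) (hXi 1) hC2
  have h5 := hM.nonneg hX
  rw [hchi]
  linarith

end Vale.Agent.P246.H429
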