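import Vale.Agent.P246.R2.H429.SF

/-! # P246: the stable range theorem, from the rows C and F -/

namespace Vale.Agent.P246.H429

open CategoryTheory Function

variable {G : Type} [Group G]

/-- The augmentation `ℤ[G] → ℤ`. -/
noncomputable def aug (G : Type) [Group G] : ZG G →+* ℤ :=
  (MonoidAlgebra.lift ℤ ℤ G (1 : G →* ℤ)).toRingHom

theorem aug_elt (g : G) : aug G (elt g) = 1 := by
  simp [aug, elt]

theorem zg_induction {P : ZG G → Prop} (h1 : ∀ g, P (elt g)) (h2 : ∀ x y, P x → P y → P (x + y))
    (h3 : ∀ x, P x → P (-x)) (h0 : P 0) (x : ZG G) : P x := by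
  have hn : ∀ (n : ℕ) (g : G), P ((n : ℤ) • elt g) := by
    intro n g
    induction n with
    | zero => simpa using h0
    | succ n ih =>
      rw [Nat.cast_succ, add_smul, one_smul]
      exact h2 _ _ ih (h1 g)
  have hz : ∀ (n : ℤ) (g : G), P (n • elt g) := by
    intro n g
    obtain ⟨m, rfl | rfl⟩ := n.eq_nat_or_neg
    · exact hn m g
    · rw [neg_smul]; exact h3 _ (hn m g)
  induction x using MonoidAlgebra.induction_linear with
  | zero => exact h0
  | add f g hf hg => exact h2 _ _ hf hg
  | single g n =>
    have h4 : (MonoidAlgebra.single g n : ZG G) = n • elt g := by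
      rw [elt, MonoidAlgebra.smul_single, smul_eq_mul, mul_one]
    rw [h4]
    exact hz n g

theorem eps_smul {M : Type} [AddCommGroup M] [Module (ZG G) M] (ε : M →+ ℤ)
    (h : ∀ (g : G) (x : M), ε (elt g • x) = ε x) (u : ZG G) (x : M) : ε (u • x) = aug G u * ε x := by
  induction u using zg_induction with
  | h1 g => rw [h, aug_elt, one_mul]
  | h2 a b ha hb => rw [add_smul, map_add, ha, hb, map_add, add_mul]
  | h3 a ha => rw [neg_smul, map_neg, ha, map_neg, neg_mul]
  | h0 => simp

/-- the augmentation ideal is generated by the `x_i - 1` -/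
theorem aug_gen (P : FinPresentation G) (u : ZG G) :
    aug G u = 0 ↔ ∃ z : Fin P.gens → ZG G, foxD1 P z = u := by
  have hgen : ∀ g : G, elt g - 1 ∈ LinearMap.range (foxD1 P) := by
    intro g
    obtain ⟨w, rfl⟩ := P.surj g
    induction w using FreeGroup.induction_on with
    | C1 =>
      rw [map_one, elt_one, sub_self]
      exact Submodule.zero_mem _
    | of i =>
      refine ⟨Pi.single i 1, ?_⟩
      rw [FreeGroup.lift_apply_of]
      simp [foxD1, Fintype.linearCombination_apply_single]
    | inv_of i ih =>
      have h : elt (FreeGroup.lift P.x (FreeGroup.of i)⁻¹) - 1 =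
          -(elt (FreeGroup.lift P.x (FreeGroup.of i))⁻¹ *
            (elt (FreeGroup.lift P.x (FreeGroup.of i)) - 1)) := by
        rw [map_inv, mul_sub, elt_mul_elt, inv_mul_cancel, elt_one]
        rw [mul_one]; abel
      rw [h]
      exact Submodule.neg_mem _ (Submodule.smul_mem _ _ ih)
    | mul x y hx hy =>
      have h : elt (FreeGroup.lift P.x (x * y)) - 1 =
          elt (FreeGroup.lift P.x x) * (elt (FreeGroup.lift P.x y) - 1) +
            (elt (FreeGroup.lift P.x x) - 1) := by
        rw [map_mul, mul_sub, elt_mul_elt, mul_one]; abel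
      rw [h]
      exact Submodule.add_mem _ (Submodule.smul_mem _ _ hy) hx
  constructor
  · intro hu
    have key : ∀ u : ZG G, u - ((aug G u : ℤ) : ZG G) ∈ LinearMap.range (foxD1 P) := by
      intro u
      induction u using zg_induction with
      | h1 g =>
        rw [aug_elt, Int.cast_one]
        exact hgen g
      | h2 a b ha hb =>
        rw [map_add, Int.cast_add, add_sub_add_comm]
        exact Submodule.add_mem _ ha hb
      | h3 a ha =>
        rw [map_neg, Int.cast_neg, neg_sub_neg, ← neg_sub]
        exact Submodule.neg_mem _ ha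
      | h0 => simp
    have h := key u
    rw [hu, Int.cast_zero, sub_zero] at h
    exact h
  · rintro ⟨z, rfl⟩
    have h : ∀ z : Fin P.gens → ZG G, aug G (foxD1 P z) = 0 := by
      intro z
      rw [foxD1, Fintype.linearCombination_apply, map_sum]
      refine Finset.sum_eq_zero fun i _ => ?_
      rw [smul_eq_mul, map_mul, map_sub, aug_elt, map_one, sub_self, mul_zero]
    exact h z

/-- the presentation with `m` trivial relators added -/
def _root_.Vale.Agent.P246.FinPresentation.addTrivial (P : FinPresentation G) (m : ℕ) :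
    FinPresentation G where
  gens := P.gens
  rels := P.rels + m
  x := P.x
  r := Fin.append P.r fun _ => 1
  surj := P.surj
  ker_eq := by
    rw [P.ker_eq]
    apply le_antisymm
    · apply Subgroup.normalClosure_le_normal
      rintro _ ⟨j, rfl⟩
      apply Subgroup.subset_normalClosure
      exact ⟨Fin.castAdd m j, Fin.append_left _ _ _⟩
    · apply Subgroup.normalClosure_le_normal
      rintro _ ⟨j, rfl⟩
      induction j using Fin.addCases with
      | left j =>
        rw [Fin.append_left]
        exact Subgroup.subset_normalClosure ⟨j, rfl⟩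
      | right j =>
        rw [Fin.append_right]
        exact Subgroup.one_mem _

theorem foxD2_addTrivial (P : FinPresentation G) (m : ℕ) (t : Fin (P.rels + m) → ZG G) :
    foxD2 (P.addTrivial m) t = foxD2 P (addEquiv (ZG G) P.rels m t).1 := by
  have h : foxD2 (P.addTrivial m) t = ∑ j : Fin (P.rels + m), t j •
      foxWord P.x ((Fin.append P.r (fun _ => 1)) j : FreeGroup (Fin P.gens)).toWord := rfl
  rw [h, Fin.sum_univ_add]
  have h2 : ∑ i : Fin m, t (Fin.natAdd P.rels i) •
      foxWord P.x ((Fin.append P.r (fun _ => 1)) (Fin.natAdd P.rels i) :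
        FreeGroup (Fin P.gens)).toWord = 0 := by
    refine Finset.sum_eq_zero fun i _ => ?_
    rw [Fin.append_right, FreeGroup.toWord_one, foxWord_nil, smul_zero]
  rw [h2, add_zero]
  rw [foxD2, Fintype.linearCombination_apply]
  refine Finset.sum_congr rfl fun i _ => ?_
  rw [Fin.append_left]
  rfl

end Vale.Agent.P246.H429
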