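import Vale.Agent.P246.R2.H429.Main
import Vale.Agent.P246.R2.H429.Core
import Vale.Agent.P246.R2.H429.Defs2

/-! # P246: the stable range theorem, the reduction -/

namespace Vale.Agent.P246.H429

open CategoryTheory Function

variable {G : Type} [Group G]

theorem foxD1_foxD2 (P : FinPresentation G) (t : Fin P.rels → ZG G) : foxD1 P (foxD2 P t) = 0 := by
  have h1 : foxD2 P t = ∑ j, t j • foxWord P.x (P.r j).toWord :=
    Fintype.linearCombination_apply _ _ _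
  rw [h1, map_sum]
  refine Finset.sum_eq_zero fun j _ => ?_
  have h2 : foxD1 P (foxWord P.x (P.r j).toWord) =
      ∑ i, foxWord P.x (P.r j).toWord i • (elt (P.x i) - 1) :=
    Fintype.linearCombination_apply _ _ _
  have h3 : ∑ i, foxWord P.x (P.r j).toWord i • (elt (P.x i) - 1) = 0 := fox_rel P j
  rw [map_smul, h2, h3, smul_zero]

/-- the chain equivalence -/
theorem d2_finish (P : FinPresentation G) (C : ChainComplex (ModuleCat.{0} (ZG G)) ℕ)
    (hC : D2Data G C) (ψ : C.X 2 →ₗ[ZG G] LinearMap.range (C.d 3 2).hom)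
    (hψ' : ∀ x : LinearMap.range (C.d 3 2).hom, ψ x.1 = x) (m : ℕ) (F0 : ZG G →ₗ[ZG G] C.X 0)
    (F1 : (Fin P.gens → ZG G) →ₗ[ZG G] C.X 1)
    (F2 : (Fin (P.rels + m) → ZG G) →ₗ[ZG G] LinearMap.ker ψ)
    (hc1 : ∀ u, (C.d 1 0).hom (F1 u) = F0 (foxD1 P u))
    (hi0 : ∀ u v, F0 u = (C.d 1 0).hom v → ∃ z, foxD1 P z = u)
    (hs0 : ∀ x, ∃ u v, F0 u - (C.d 1 0).hom v = x)
    (hF : ∀ x, foxD1 P x = 0 → ∃ t, foxD2 P t = x)
    (h1 : ∀ t, (C.d 2 1).hom (F2 t).1 = F1 (foxD2 P (addEquiv (ZG G) P.rels m t).1))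
    (h2 : ∀ t, foxD2 P (addEquiv (ZG G) P.rels m t).1 = 0 → F2 t = 0 → t = 0)
    (h3 : ∀ w : LinearMap.ker ψ, (C.d 2 1).hom w.1 = 0 →
      ∃ t, foxD2 P (addEquiv (ZG G) P.rels m t).1 = 0 ∧ F2 t = w) :
    Nonempty (HomotopyEquiv C (foxCC (P.addTrivial m))) := by
  have hfx : ∀ t : Fin (P.rels + m) → ZG G, foxD2 (P.addTrivial m) t =
      foxD2 P (addEquiv (ZG G) P.rels m t).1 := foxD2_addTrivial P m
  let F2' : (Fin (P.rels + m) → ZG G) →ₗ[ZG G] C.X 2 := (LinearMap.ker ψ).subtype ∘ₗ F2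
  have hF2 : ∀ t, F2' t = (F2 t).1 := fun t => rfl
  have K2 : ∀ t : Fin (P.rels + m) → ZG G,
      (C.d 2 1).hom (F2' t) = F1 (foxD2 (P.addTrivial m) t) := by
    intro t
    rw [hfx]
    exact h1 t
  have K3 : ∀ x, foxD1 P x = 0 →
      ∃ t : Fin (P.rels + m) → ZG G, foxD2 (P.addTrivial m) t = x := by
    intro x hx
    obtain ⟨t, ht⟩ := hF x hx
    refine ⟨(addEquiv (ZG G) P.rels m).symm (t, 0), ?_⟩
    rw [hfx, LinearEquiv.apply_symm_apply]
    exact ht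
  have K4 : ∀ t : Fin (P.rels + m) → ZG G, foxD2 (P.addTrivial m) t = 0 →
      (∃ y, (C.d 3 2).hom y = F2' t) → t = 0 := by
    rintro t ht ⟨w, hw⟩
    rw [hfx] at ht
    refine h2 t ht (Subtype.ext ?_)
    have h4 : F2' t ∈ LinearMap.range (C.d 3 2).hom := ⟨w, hw⟩
    have h5 : ψ (F2' t) = 0 := (F2 t).2
    have h6 : ψ (F2' t) = ⟨F2' t, h4⟩ := hψ' ⟨F2' t, h4⟩
    rw [h5] at h6
    exact (congrArg Subtype.val h6).symm
  have K5 : ∀ y, (C.d 2 1).hom y = 0 → ∃ t : Fin (P.rels + m) → ZG G,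
      foxD2 (P.addTrivial m) t = 0 ∧ ∃ z, y = F2' t + (C.d 3 2).hom z := by
    intro v hv
    obtain ⟨w, hw⟩ := (ψ v).2
    have hq : v - (ψ v : C.X 2) ∈ LinearMap.ker ψ := by
      rw [LinearMap.mem_ker, map_sub, hψ', sub_self]
    have hdd : (C.d 2 1).hom ((C.d 3 2).hom w) = 0 := dd_zero C 3 2 1 w
    have h4 : (C.d 2 1).hom (v - (ψ v : C.X 2)) = 0 := by
      rw [map_sub, ← hw, hdd, sub_zero]
      exact hv
    obtain ⟨t, ht, ht2⟩ := h3 ⟨v - (ψ v : C.X 2), hq⟩ h4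
    refine ⟨t, ?_, w, ?_⟩
    · rw [hfx]
      exact ht
    · rw [hF2, ht2, hw]
      exact (sub_add_cancel v _).symm
  refine fox_equiv (P.addTrivial m) C hC.free F0 F1 F2' hc1 K2 ?_ ?_ K3 ?_ K4 K5 ?_
  · rintro x ⟨v, hv⟩
    exact hi0 x v hv.symm
  · intro v
    obtain ⟨u, z, h⟩ := hs0 v
    refine ⟨u, -z, ?_⟩
    rw [map_neg, ← sub_eq_add_neg]
    exact h.symm
  · exact (exactAt_succ_iff C 0).1 hC.homology_one
  · intro i v hv
    exact (exactAt_succ_iff C (i + 2)).1 (hC.homology_high (i + 3) (by omega)) v hv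

theorem d2_stable (hCan : SpecCan) (hFox : SpecFox) {k : ℕ} (hk : 1 ≤ k) (hSR : SR (ZG G) k)
    (P : FinPresentation G) (C : ChainComplex (ModuleCat.{0} (ZG G)) ℕ) (hC : D2Data G C) (n : ℤ)
    (hn : HasEuler (G := G) C n) (hle : 1 - (P.gens : ℤ) + P.rels + k ≤ n) :
    ∃ m : ℕ, (m : ℤ) = n - (1 - P.gens + P.rels) ∧
      Nonempty (HomotopyEquiv C (foxCC (P.addTrivial m))) := by
  obtain ⟨c, N, hc, hcN, rfl⟩ := hn
  have hc' : ∀ i, Nonempty (C.X i ≃ₗ[ZG G] (Fin (c i) → ZG G)) := hc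
  have hfree := hC.free
  have hfin := hC.finite
  have hsub : ∀ i, N ≤ i → Subsingleton (C.X i) := by
    intro i hi
    obtain ⟨e⟩ := hc' i
    have h0 := hcN i hi
    rw [h0] at e
    exact e.toEquiv.subsingleton
  -- the retraction
  obtain ⟨ψ, hψ⟩ := hC.cohomology_three (LinearMap.range (C.d 3 2).hom)
    (C.d 3 2).hom.rangeRestrict (by
      intro x
      apply Subtype.ext
      exact dd_zero C 4 3 2 x)
  have hψ' : ∀ x : LinearMap.range (C.d 3 2).hom, ψ x.1 = x := by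
    rintro ⟨_, ⟨x, rfl⟩⟩
    exact (hψ x).symm
  have hprojX2 : Module.Projective (ZG G) (C.X 2) := inferInstance
  have hproj : Module.Projective (ZG G) (LinearMap.range (C.d 3 2).hom) := by
    refine Module.Projective.of_split (LinearMap.range (C.d 3 2).hom).subtype ψ ?_
    ext x
    exact congrArg Subtype.val (hψ' x)
  have hB : SFr (ZG G) (LinearMap.range (C.d 3 2).hom)
      (∑ i ∈ Finset.range N, (-1 : ℤ) ^ i * c (i + 1 + 2)) := by
    refine SFr.range N (fun i => C.X (i + 2)) (fun i => c (i + 2)) (fun i => hc' (i + 2))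
      (fun i => (C.d (i + 3) (i + 2)).hom) (fun i hi => hsub (i + 2) (by omega)) ?_ hproj
    intro i
    ext x
    rw [LinearMap.mem_ker, LinearMap.mem_range]
    constructor
    · intro hx
      exact (exactAt_succ_iff C (i + 2)).1 (hC.homology_high (i + 3) (by omega)) x hx
    · rintro ⟨y, rfl⟩
      exact dd_zero C _ _ _ y
  set β : ℤ := ∑ i ∈ Finset.range N, (-1 : ℤ) ^ i * c (i + 1 + 2) with hβ
  have hX : ∀ i, SFr (ZG G) (C.X i) (c i) := by
    intro i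
    obtain ⟨e⟩ := hc' i
    exact (SFr.free (R := ZG G) (c i)).of_equiv e.symm
  have hC2 : SFr (ZG G) (LinearMap.ker ψ) (c 2 - β) :=
    SFr.ker (hX 2) hB ψ (fun y => ⟨y.1, hψ' y⟩)
  have hchi : ∑ i ∈ Finset.range N, (-1 : ℤ) ^ i * c i = c 0 - c 1 + c 2 - β := by
    have h1 : ∑ i ∈ Finset.range N, (-1 : ℤ) ^ i * c i =
        ∑ i ∈ Finset.range (N + 3), (-1 : ℤ) ^ i * (c i : ℤ) := by
      rw [Finset.sum_range_add]
      have h2 : ∑ x ∈ Finset.range 3, (-1 : ℤ) ^ (N + x) * (c (N + x) : ℤ) = 0 := by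
        refine Finset.sum_eq_zero fun i _ => ?_
        rw [hcN (N + i) (by omega)]
        simp
      rw [h2, add_zero]
    rw [h1, Finset.sum_range_succ', Finset.sum_range_succ', Finset.sum_range_succ', hβ]
    have h3 : ∑ i ∈ Finset.range N, (-1 : ℤ) ^ (i + 1 + 1 + 1) * (c (i + 1 + 1 + 1) : ℤ) =
        - ∑ i ∈ Finset.range N, (-1 : ℤ) ^ i * (c (i + 1 + 2) : ℤ) := by
      rw [← Finset.sum_neg_distrib]
      refine Finset.sum_congr rfl fun i _ => ?_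
      rw [show i + 1 + 1 + 1 = i + 1 + 2 by omega]
      rw [show i + 1 + 2 = i + 3 by omega, pow_add]
      ring
    rw [h3]
    simp
    ring
  -- the augmentation and the chain map
  obtain ⟨ε, hεs, hεg, hεk⟩ := hC.homology_zero
  obtain ⟨x0, hx0⟩ := hεs 1
  let F0 : ZG G →ₗ[ZG G] C.X 0 := LinearMap.toSpanSingleton (ZG G) (C.X 0) x0
  have hF0 : ∀ u, ε (F0 u) = aug G u := by
    intro u
    have h : F0 u = u • x0 := rfl
    rw [h, eps_smul ε hεg, hx0, mul_one]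
  let D1 : C.X 1 →ₗ[ZG G] C.X 0 := (C.d 1 0).hom
  have hε1 : ∀ x, ε x = 0 ↔ ∃ y, D1 y = x := hεk
  have hy : ∀ i, ∃ y : C.X 1, D1 y = F0 (elt (P.x i) - 1) := by
    intro i
    rw [← hε1, hF0, map_sub, aug_elt, map_one, sub_self]
  choose y hy using hy
  let F1 : (Fin P.gens → ZG G) →ₗ[ZG G] C.X 1 := Fintype.linearCombination (ZG G) y
  have hc1 : ∀ u, D1 (F1 u) = F0 (foxD1 P u) := by
    intro u
    have h1 : F1 u = ∑ i, u i • y i := Fintype.linearCombination_apply _ _ _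
    have h2 : foxD1 P u = ∑ i, u i • (elt (P.x i) - 1) := Fintype.linearCombination_apply _ _ _
    rw [h1, h2, map_sum, map_sum]
    refine Finset.sum_congr rfl fun i _ => ?_
    rw [map_smul, map_smul, hy]
  let D2 : LinearMap.ker ψ →ₗ[ZG G] C.X 1 := (C.d 2 1).hom ∘ₗ (LinearMap.ker ψ).subtype
  have hDD : ∀ x, D1 (D2 x) = 0 := fun x => dd_zero C 2 1 0 _
  have hex : ∀ v, D1 v = 0 → ∃ x, D2 x = v := by
    intro v hv
    obtain ⟨x, hx⟩ := (exactAt_succ_iff C 0).1 hC.homology_one v hv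
    refine ⟨⟨x - ψ x, ?_⟩, ?_⟩
    · rw [LinearMap.mem_ker, map_sub, hψ', sub_self]
    · change (C.d 2 1).hom (x - ψ x) = v
      rw [map_sub]
      obtain ⟨w, hw⟩ := (ψ x).2
      rw [← hw]
      have h0 : (C.d 2 1).hom ((C.d 3 2).hom w) = 0 := dd_zero C 3 2 1 w
      rw [h0, sub_zero]
      exact hx
  have hκ : ∀ x, foxD1 P x = 0 ↔ ∃ t, foxD2 P t = x := by
    intro x
    constructor
    · exact hFox G P x
    · rintro ⟨t, rfl⟩
      exact foxD1_foxD2 P t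
  have hi0 : ∀ u v, F0 u = D1 v → ∃ z, foxD1 P z = u := by
    intro u v huv
    have h2 : aug G u = 0 := by
      rw [← hF0, hε1]
      exact ⟨v, huv.symm⟩
    exact (aug_gen P u).1 h2
  have hs0 : ∀ x, ∃ u v, F0 u - D1 v = x := by
    intro x
    have h1 : ε (F0 ((ε x : ℤ) : ZG G) - x) = 0 := by
      rw [map_sub, hF0, map_intCast, Int.cast_id, sub_self]
    obtain ⟨v, hv⟩ := (hε1 _).1 h1
    refine ⟨((ε x : ℤ) : ZG G), v, ?_⟩
    rw [hv, sub_sub_cancel]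
  obtain ⟨m, hm⟩ : ∃ m : ℕ, (m : ℤ) = ∑ i ∈ Finset.range N, (-1 : ℤ) ^ i * c i -
      (1 - P.gens + P.rels) := by
    refine ⟨(∑ i ∈ Finset.range N, (-1 : ℤ) ^ i * c i - (1 - P.gens + P.rels)).toNat, ?_⟩
    rw [Int.toNat_of_nonneg]
    have : (0 : ℤ) ≤ k := Int.natCast_nonneg k
    linarith
  have hkm : k ≤ m := by
    have : (k : ℤ) ≤ m := by rw [hm]; linarith
    exact_mod_cast this
  obtain ⟨F2, h1, h2, h3⟩ := core hCan hk hSR (foxD1 P) (foxD2 P) hκ (C.X 0) (C.X 1)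
    (LinearMap.ker ψ) D1 D2 F0 F1 hc1 hDD hex hi0 hs0 (c 0) (c 1) (c 2 - β) (hX 0) (hX 1) hC2 m
    (by rw [hm, hchi]; ring) hkm
  exact ⟨m, hm, d2_finish P C hC ψ hψ' m F0 F1 F2 hc1 hi0 hs0 (fun x => (hκ x).1) h1 h2 h3⟩

end Vale.Agent.P246.H429
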