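import Vale.Agent.P246.R2.H429.Defs

/-! # P246: stably free modules and ranks -/

namespace Vale.Agent.P246.H429

open Function

variable {R : Type} [Ring R]

/-- `M ⊕ R^a ≅ R^b` with `b - a = n`. -/
def SFr (R : Type) [Ring R] (M : Type) [AddCommGroup M] [Module R M] (n : ℤ) : Prop :=
  ∃ a b : ℕ, Nonempty ((M × (Fin a → R)) ≃ₗ[R] (Fin b → R)) ∧ (b : ℤ) - a = n

variable {M N L : Type} [AddCommGroup M] [Module R M] [AddCommGroup N] [Module R N]
  [AddCommGroup L] [Module R L]

/-- `R^(a+b) ≅ R^a × R^b` -/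
noncomputable def addEquiv (R : Type) [Ring R] (a b : ℕ) :
    (Fin (a + b) → R) ≃ₗ[R] (Fin a → R) × (Fin b → R) :=
  (LinearEquiv.funCongrLeft R R finSumFinEquiv).trans (LinearEquiv.sumArrowLequivProdArrow (Fin a) (Fin b) R R)

theorem SFr.of_equiv {n : ℤ} (h : SFr R M n) (e : M ≃ₗ[R] N) : SFr R N n := by
  obtain ⟨a, b, ⟨f⟩, hab⟩ := h
  exact ⟨a, b, ⟨(LinearEquiv.prodCongr e.symm (LinearEquiv.refl R _)).trans f⟩, hab⟩

theorem SFr.free (n : ℕ) : SFr R (Fin n → R) n :=
  ⟨0, n, ⟨(LinearEquiv.prodUnique : ((Fin n → R) × (Fin 0 → R)) ≃ₗ[R] (Fin n → R))⟩, by simp⟩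

theorem SFr.of_subsingleton [Subsingleton M] : SFr R M 0 :=
  (SFr.free (R := R) 0).of_equiv (0 : (Fin 0 → R) ≃ₗ[R] M)

theorem SFr.prod {m n : ℤ} (h : SFr R M m) (h' : SFr R N n) : SFr R (M × N) (m + n) := by
  obtain ⟨a, b, ⟨f⟩, hab⟩ := h
  obtain ⟨a', b', ⟨f'⟩, hab'⟩ := h'
  refine ⟨a + a', b + b', ⟨?_⟩, by push_cast; omega⟩
  exact (LinearEquiv.prodCongr (LinearEquiv.refl R _) (addEquiv R a a')).trans
    ((LinearEquiv.prodProdProdComm R M N (Fin a → R) (Fin a' → R)).trans
      ((LinearEquiv.prodCongr f f').trans (addEquiv R b b').symm))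

theorem SFr.cancel {m n : ℤ} (h : SFr R (M × N) m) (h' : SFr R N n) : SFr R M (m - n) := by
  obtain ⟨a, b, ⟨f⟩, hab⟩ := h
  obtain ⟨a', b', ⟨f'⟩, hab'⟩ := h'
  refine ⟨a + b', b + a', ⟨?_⟩, by push_cast; omega⟩
  let e1 : (M × (Fin (a + b') → R)) ≃ₗ[R] (M × ((Fin a → R) × (N × (Fin a' → R)))) :=
    LinearEquiv.prodCongr (LinearEquiv.refl R M) ((addEquiv R a b').trans
      (LinearEquiv.prodCongr (LinearEquiv.refl R (Fin a → R)) f'.symm))
  let e2 : (M × ((Fin a → R) × (N × (Fin a' → R)))) ≃ₗ[R]
      (((M × N) × (Fin a → R)) × (Fin a' → R)) :=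
    { toFun := fun x => (((x.1, x.2.2.1), x.2.1), x.2.2.2)
      invFun := fun y => (y.1.1.1, (y.1.2, (y.1.1.2, y.2)))
      left_inv := fun _ => rfl
      right_inv := fun _ => rfl
      map_add' := fun _ _ => rfl
      map_smul' := fun _ _ => rfl }
  let e3 : (((M × N) × (Fin a → R)) × (Fin a' → R)) ≃ₗ[R] ((Fin b → R) × (Fin a' → R)) :=
    LinearEquiv.prodCongr f (LinearEquiv.refl R (Fin a' → R))
  exact e1.trans (e2.trans (e3.trans (addEquiv R b a').symm))

theorem SFr.comm {n : ℤ} (h : SFr R (M × N) n) : SFr R (N × M) n :=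
  h.of_equiv (LinearEquiv.prodComm R M N)

/-- a surjection onto a projective module splits -/
theorem split_surj [Module.Projective R N] (f : M →ₗ[R] N) (hf : Surjective f) :
    Nonempty (M ≃ₗ[R] LinearMap.ker f × N) := by
  obtain ⟨s, hs⟩ := Module.projective_lifting_property f LinearMap.id hf
  have hs' : ∀ y, f (s y) = y := fun y => LinearMap.congr_fun hs y
  refine ⟨{ toFun := fun x => (⟨x - s (f x), by simp [hs']⟩, f x)
            invFun := fun y => y.1 + s y.2
            left_inv := fun x => by simp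
            right_inv := fun y => by
              have h1 : f (y.1 + s y.2) = y.2 := by
                rw [map_add, hs', LinearMap.mem_ker.1 y.1.2, zero_add]
              apply Prod.ext
              · apply Subtype.ext
                change (y.1 : M) + s y.2 - s (f (y.1 + s y.2)) = _
                rw [h1, add_sub_cancel_right]
              · exact h1
            map_add' := fun x y => by
              apply Prod.ext
              · apply Subtype.ext
                change (x + y) - s (f (x + y)) = (x - s (f x)) + (y - s (f y))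
                rw [map_add, map_add]; abel
              · exact map_add f x y
            map_smul' := fun r x => by
              apply Prod.ext
              · apply Subtype.ext
                change (r • x) - s (f (r • x)) = r • (x - s (f x))
                rw [map_smul, map_smul, smul_sub]
              · exact map_smul f r x }⟩

theorem SFr.projective {n : ℤ} (h : SFr R M n) : Module.Projective R M := by
  obtain ⟨a, b, ⟨f⟩, -⟩ := h
  refine Module.Projective.of_split (f.toLinearMap ∘ₗ LinearMap.inl R M (Fin a → R))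
    (LinearMap.fst R M (Fin a → R) ∘ₗ f.symm.toLinearMap) ?_
  ext x
  simp

/-- the kernel of a surjection -/
theorem SFr.ker {m n : ℤ} (hM : SFr R M m) (hN : SFr R N n) (f : M →ₗ[R] N) (hf : Surjective f) :
    SFr R (LinearMap.ker f) (m - n) := by
  have := hN.projective
  obtain ⟨e⟩ := split_surj f hf
  exact (hM.of_equiv e).cancel hN

/-- Schanuel's lemma, over `Z` -/
theorem schanuel {Z : Type} [AddCommGroup Z] [Module R Z] [Module.Projective R M]
    [Module.Projective R N] (p : M →ₗ[R] Z) (q : N →ₗ[R] Z) (h : LinearMap.range p = LinearMap.range q) :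
    ∃ φ : (M × N) ≃ₗ[R] (M × N), ∀ v, q (φ v).2 = p v.1 := by
  obtain ⟨s, hs⟩ := Module.projective_lifting_property q.rangeRestrict
    ((LinearEquiv.ofEq _ _ h).toLinearMap ∘ₗ p.rangeRestrict) q.surjective_rangeRestrict
  obtain ⟨t, ht⟩ := Module.projective_lifting_property p.rangeRestrict
    ((LinearEquiv.ofEq _ _ h.symm).toLinearMap ∘ₗ q.rangeRestrict) p.surjective_rangeRestrict
  have hs' : ∀ x, q (s x) = p x := fun x => congrArg Subtype.val (LinearMap.congr_fun hs x)
  have ht' : ∀ x, p (t x) = q x := fun x => congrArg Subtype.val (LinearMap.congr_fun ht x)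
  let A : (M × N) ≃ₗ[R] (M × N) :=
    { toFun := fun v => (v.1 + t v.2, v.2)
      invFun := fun v => (v.1 - t v.2, v.2)
      left_inv := fun v => by simp
      right_inv := fun v => by simp
      map_add' := fun v w => by
        apply Prod.ext
        · change v.1 + w.1 + t (v.2 + w.2) = (v.1 + t v.2) + (w.1 + t w.2)
          rw [map_add]; abel
        · rfl
      map_smul' := fun r v => by
        apply Prod.ext
        · change r • v.1 + t (r • v.2) = r • (v.1 + t v.2)
          rw [map_smul, smul_add]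
        · rfl }
  let B : (M × N) ≃ₗ[R] (M × N) :=
    { toFun := fun v => (v.1, v.2 + s v.1)
      invFun := fun v => (v.1, v.2 - s v.1)
      left_inv := fun v => by simp
      right_inv := fun v => by simp
      map_add' := fun v w => by
        apply Prod.ext
        · rfl
        · change v.2 + w.2 + s (v.1 + w.1) = (v.2 + s v.1) + (w.2 + s w.1)
          rw [map_add]; abel
      map_smul' := fun r v => by
        apply Prod.ext
        · rfl
        · change r • v.2 + s (r • v.1) = r • (v.2 + s v.1)
          rw [map_smul, smul_add] }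
  refine ⟨A.symm.trans B, fun v => ?_⟩
  obtain ⟨w, rfl⟩ := A.surjective v
  rw [LinearEquiv.trans_apply, LinearEquiv.symm_apply_apply]
  change q (w.2 + s w.1) = p (w.1 + t w.2)
  rw [map_add, map_add, hs', ht', add_comm]

/-- the boundaries of a long exact sequence of free modules -/
theorem SFr.range (N : ℕ) (X : ℕ → Type) [∀ i, AddCommGroup (X i)] [∀ i, Module R (X i)]
    (c : ℕ → ℕ) (e : ∀ i, Nonempty (X i ≃ₗ[R] (Fin (c i) → R))) (d : ∀ i, X (i + 1) →ₗ[R] X i)
    (h0 : ∀ i, N < i → Subsingleton (X i)) (hd : ∀ i, LinearMap.ker (d i) = LinearMap.range (d (i + 1)))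
    (hp : Module.Projective R (LinearMap.range (d 0))) :
    SFr R (LinearMap.range (d 0)) (∑ i ∈ Finset.range N, (-1 : ℤ) ^ i * c (i + 1)) := by
  induction N generalizing X c with
  | zero =>
    have : Subsingleton (LinearMap.range (d 0)) := by
      have := h0 1 one_pos
      refine ⟨?_⟩
      rintro ⟨_, ⟨x, rfl⟩⟩ ⟨_, ⟨y, rfl⟩⟩
      rw [Subsingleton.elim x y]
    simpa using SFr.of_subsingleton (R := R) (M := LinearMap.range (d 0))
  | succ N ih =>
    obtain ⟨f⟩ := split_surj (d 0).rangeRestrict (d 0).surjective_rangeRestrict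
    have hk : LinearMap.ker (d 0).rangeRestrict = LinearMap.range (d 1) := by
      rw [LinearMap.ker_rangeRestrict]; exact hd 0
    have hfree : Module.Free R (X 1) := by
      obtain ⟨g⟩ := e 1
      exact Module.Free.of_equiv g.symm
    have hp1 : Module.Projective R (LinearMap.range (d 1)) := by
      have h1 : Module.Projective R (LinearMap.ker (d 0).rangeRestrict) := by
        refine Module.Projective.of_split (f.symm.toLinearMap ∘ₗ LinearMap.inl R _ _)
          (LinearMap.fst R _ _ ∘ₗ f.toLinearMap) ?_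
        ext x
        simp
      exact Module.Projective.of_equiv (LinearEquiv.ofEq _ _ hk)
    have h2 := ih (fun i => X (i + 1)) (fun i => c (i + 1)) (fun i => e (i + 1)) (fun i => d (i + 1))
      (fun i hi => h0 (i + 1) (by omega)) (fun i => hd (i + 1)) hp1
    obtain ⟨g⟩ := e 1
    have h3 : SFr R (X 1) (c 1) := (SFr.free (R := R) (c 1)).of_equiv g.symm
    have h4 : SFr R (LinearMap.range (d 0) × LinearMap.range (d 1)) (c 1) :=
      ((h3.of_equiv f).of_equiv (LinearEquiv.prodCongr (LinearEquiv.ofEq _ _ hk)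
        (LinearEquiv.refl R _))).comm
    have h5 := h4.cancel h2
    have h6 : ((c 1 : ℤ) - ∑ i ∈ Finset.range N, (-1 : ℤ) ^ i * c (i + 1 + 1)) =
        ∑ i ∈ Finset.range (N + 1), (-1 : ℤ) ^ i * c (i + 1) := by
      rw [Finset.sum_range_succ']
      simp only [pow_succ, pow_zero, one_mul, zero_add]
      rw [← sub_eq_zero]
      rw [show (∑ i ∈ Finset.range N, (-1 : ℤ) ^ i * -1 * (c (i + 1 + 1) : ℤ)) =
        - ∑ i ∈ Finset.range N, (-1 : ℤ) ^ i * (c (i + 1 + 1) : ℤ) by
          rw [← Finset.sum_neg_distrib]; refine Finset.sum_congr rfl fun i _ => by ring]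
      ring
    rwa [h6] at h5

end Vale.Agent.P246.H429
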