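import Vale.Agent.P246.R2.H429.Red
import Vale.Agent.P246.R2.H855.Can
import Vale.Agent.P246.R2.H925.Fox
import Vale.Agent.P246.R2.H672.Bass
import Vale.Agent.P246.R2.H408.VA

/-! # P246: the stable range theorem, first version -/

namespace Vale.Agent.P246.H429

open Vale.Agent.P246

theorem fg_of_pres {G : Type} [Group G] (P : FinPresentation G) : Group.FG G :=
  Group.fg_of_surjective P.surj

theorem stable {G : Type} [Group G] {k : ℕ} (hk : 1 ≤ k) (hSR : SR (ZG G) k)
    (P : FinPresentation G) (C : Cx (ZG G)) (hC : IsD2Complex C) (n : ℤ) (hn : HasEuler C n)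
    (hle : 1 - (P.gens : ℤ) + P.rels + k ≤ n) :
    ∃ m : ℕ, (m : ℤ) = n - (1 - P.gens + P.rels) ∧ C.Equiv (foxComplex (P.addTrivial m)) :=
  d2_stable Vale.Agent.P246.H855.can Vale.Agent.P246.H925.fox_exact hk hSR P C hC.data n hn hle

theorem sr_virtually_abelian (G : Type) [Group G] (hG : Group.FG G)
    (hN : ∃ N : Subgroup G, N.FiniteIndex ∧ ∀ a ∈ N, ∀ b ∈ N, a * b = b * a) :
    ∃ k : ℕ, 1 ≤ k ∧ SR (ZG G) k := by
  obtain ⟨A, _, _, _, _, d, hd⟩ := Vale.Agent.P246.H408.va G hG hN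
  exact Vale.Agent.P246.H672.bass A (ZG G) d hd

end Vale.Agent.P246.H429
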