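import Vale.Agent.P246.R2.H429.Low
import Vale.Agent.P246.R2.H429.Defs4
import Vale.Agent.P246.R2.H855.Can
import Vale.Agent.P246.R2.H925.Fox
import Vale.Agent.P246.R2.H301.Bass2Top
import Vale.Agent.P246.R2.H888.VA2
import Vale.Agent.P246.R2.H888.RowH
import Vale.Agent.P246.R2.H665.RowEX
import Vale.Agent.P246.R2.H555.W
import Vale.Agent.P246.R2.H31.TopChi

/-! # P246: the stable range theorem, second version -/

namespace Vale.Agent.P246.H429

open Vale.Agent.P246 Vale.Agent.P246.T Topology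

theorem fg_of_pres {G : Type} [Group G] (P : FinPresentation G) : Group.FG G :=
  Group.fg_of_surjective P.surj

/-- the number `χ(P) + k` -/
abbrev thr {G : Type} [Group G] (P : FinPresentation G) (k : ℕ) : ℤ :=
  1 - (P.gens : ℤ) + P.rels + k

theorem stable {G : Type} [Group G] {k : ℕ} (hk : 1 ≤ k) (hSR : SR (ZG G) k)
    (P : FinPresentation G) (C : Cx (ZG G)) (hC : IsD2Complex C) (n : ℤ) (hn : HasEuler C n)
    (hle : 1 - (P.gens : ℤ) + P.rels + k ≤ n) :
    ∃ m : ℕ, (m : ℤ) = n - (1 - P.gens + P.rels) ∧ C.Equiv (foxComplex (P.addTrivial m)) :=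
  d2_stable Vale.Agent.P246.H855.can Vale.Agent.P246.H925.fox_exact hk hSR P C hC.data n hn hle

theorem sr_va {G : Type} [Group G] {h : ℕ}
    (hN : ∃ N : Subgroup G, N.FiniteIndex ∧ Nonempty (N ≃* Multiplicative (Fin h → ℤ))) :
    SR (ZG G) (h + 2) := by
  obtain ⟨A, _, _, _, _, hd⟩ := Vale.Agent.P246.R2.H888.va2 G h hN
  exact Vale.Agent.P246.H301.specBass2 A (ZG G) (h + 1) hd

theorem lower {G : Type} [Group G] (P : FinPresentation G) (C : Cx (ZG G)) (hC : IsD2Complex C)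
    (n : ℤ) (hn : HasEuler C n) : 1 - (P.gens : ℤ) ≤ n :=
  low Vale.Agent.P246.H665.rowX P C hC.data n hn

theorem wedge_stable {G : Type} [Group G] {k : ℕ} (hk : 1 ≤ k) (hSR : SR (ZG G) k)
    (P : FinPresentation G) (C : Cx (ZG G)) (hC : IsD2Complex C) (b : ℤ)
    (hb : ∀ n, HasEuler C n → b ≤ n) (t : ℕ)
    (ht : 1 - (P.gens : ℤ) + P.rels + k ≤ b + t) :
    ∃ m : ℕ, (wedge C t).Equiv (foxComplex (P.addTrivial m)) := by
  obtain ⟨n, hn, -⟩ := Vale.Agent.P246.H665.rowE G C hC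
  obtain ⟨h1, h2⟩ := Vale.Agent.P246.R2.H555.specW G C t n hC hn
  obtain ⟨m, -, h3⟩ := stable hk hSR P _ h1 _ h2 (by have := hb n hn; linarith)
  exact ⟨m, h3⟩

theorem top_stable {G : Type} [Group G] {k : ℕ} (hk : 1 ≤ k) (hSR : SR (ZG G) k)
    (P : FinPresentation G) (X : Type) [TopologicalSpace X] [T2Space X]
    [CWComplex (Set.univ : Set X)] [CWComplex.Finite (Set.univ : Set X)] [ConnectedSpace X] (x : X)
    (hG : Nonempty (FundamentalGroup X x ≃* G)) (hX : D2Condition X)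
    (hle : 1 - (P.gens : ℤ) + P.rels + k ≤ cellChi X) : HasFiniteTwoModel X :=
  Vale.Agent.P246.R2.H31T.topChi G (1 - (P.gens : ℤ) + P.rels + k)
    (fun C hC n hn hle => (stable hk hSR P C hC n hn hle).imp' _ fun _ h => h.2) X x hG hX hle

end Vale.Agent.P246.H429
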